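import Mathlib
import Vale.Agent.P193.Main

/-- The Boone-Higman conjecture. A word in `S ∪ S⁻¹` is a list of pairs `(i, b)`, standing for
`s i` when `b = true` and for `(s i)⁻¹` when `b = false`. -/
theorem Vale.Agent.Results.P193.BooneHigman.result.{u} {G : Type u} [Group G] {n : ℕ}
    (s : Fin n → G) (hs : Subgroup.closure (Set.range s) = ⊤)
    (hdec : ComputablePred fun w : List (Fin n × Bool) =>
      (w.map fun p => if p.2 = true then s p.1 else (s p.1)⁻¹).prod = 1) :
    ∃ (K : Type) (_ : Group K), IsSimpleGroup K ∧ Group.IsFinitelyPresented K ∧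
      ∃ f : G →* K, Function.Injective f :=
  Vale.Agent.P193.boone_higman s hs hdec
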